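import Vale.Agent.P196.Tree.Basic

namespace Vale.Agent.P196.Tree

lemma wact_mem {α X : Type} (act : α → X → X) (Y : ℕ → Set X)
    (hstep : ∀ k l y, y ∈ Y (k + 1) → act l y ∈ Y k) :
    ∀ (w : List α) (k : ℕ) (y : X), y ∈ Y (k + w.length) → wact act w y ∈ Y k := by
  intro w
  induction w with
  | nil => intro k y hy; simpa [wact] using hy
  | cons l w ih =>
    intro k y hy
    simp only [wact]
    apply hstep
    apply ih
    simp only [List.length_cons] at hy
    have : k + (w.length + 1) = k + 1 + w.length := by ring
    rwa [this] at hy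

/-- Abstract gluing lemma. -/
theorem glue {α X : Type} (act : α → X → X) (r : X → X) (Y : ℕ → Set X)
    (hstep : ∀ k l y, y ∈ Y (k + 1) → act l y ∈ Y k)
    (hmono : ∀ k, Y (k + 1) ⊆ Y k)
    (hb : ∀ l, ∀ y ∈ Y 1, r (act l (r y)) = r (act l y)) :
    ∀ (w : List α) (y : X), y ∈ Y w.length →
      wact (fun l x => r (act l x)) w (r y) = r (wact act w y) := by
  intro w
  induction w with
  | nil => intro y _; simp [wact]
  | cons l w ih =>
    intro y hy
    simp only [List.length_cons] at hy
    simp only [wact]
    rw [ih y (hmono _ hy)]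
    apply hb
    apply wact_mem act Y hstep w 1 y
    rwa [add_comm]

end Vale.Agent.P196.Tree
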