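import Vale.Agent.P196.Tree.Basic

namespace Vale.Agent.P196.Tree

/-- At most `(Δ+1)^n` vertices lie at depth at most `n` below `v`. -/
lemma desc_count {V : Type} (π : V → V) (Δ : ℕ)
    (hΔ : ∀ v, ∃ t : Finset V, t.card ≤ Δ ∧ ∀ w, π w = v → w ∈ t) (n : ℕ) (v : V) :
    ∃ t : Finset V, t.card ≤ (Δ + 1) ^ n ∧ ∀ y, ∀ j ≤ n, π^[j] y = v → y ∈ t := by
  classical
  induction n generalizing v with
  | zero =>
    refine ⟨{v}, by simp, ?_⟩
    intro y j hj hy
    have : j = 0 := by omega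
    subst this
    simpa using hy
  | succ n ih =>
    obtain ⟨ch, hch, hch2⟩ := hΔ v
    choose t ht1 ht2 using ih
    refine ⟨insert v (ch.biUnion t), ?_, ?_⟩
    · calc (insert v (ch.biUnion t)).card ≤ (ch.biUnion t).card + 1 := Finset.card_insert_le _ _
        _ ≤ (∑ c ∈ ch, (t c).card) + 1 := by
            have := Finset.card_biUnion_le (s := ch) (t := t)
            omega
        _ ≤ (∑ _c ∈ ch, (Δ + 1) ^ n) + 1 := by
            have := Finset.sum_le_sum (fun c (_ : c ∈ ch) => ht1 c)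
            omega
        _ = ch.card * (Δ + 1) ^ n + 1 := by rw [Finset.sum_const, smul_eq_mul]
        _ ≤ Δ * (Δ + 1) ^ n + (Δ + 1) ^ n := by
            have h1 := Nat.mul_le_mul_right ((Δ + 1) ^ n) hch
            have h2 : 1 ≤ (Δ + 1) ^ n := Nat.one_le_pow _ _ (by omega)
            omega
        _ = (Δ + 1) ^ (n + 1) := by ring
    · intro y j hj hy
      rcases Nat.eq_zero_or_pos j with h0 | hpos
      · subst h0
        have : y = v := by simpa using hy
        rw [this]
        exact Finset.mem_insert_self _ _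
      · obtain ⟨k, rfl⟩ : ∃ k, j = k + 1 := ⟨j - 1, by omega⟩
        rw [Function.iterate_succ_apply'] at hy
        apply Finset.mem_insert_of_mem
        rw [Finset.mem_biUnion]
        exact ⟨π^[k] y, hch2 _ hy, ht2 _ y k (by omega) rfl⟩

/-- The collar of radius `j` of `v` has at most `(j+1) * (Δ+1)^j` points. -/
lemma collar_count {V : Type} (π : V → V) (Δ : ℕ)
    (hΔ : ∀ v, ∃ t : Finset V, t.card ≤ Δ ∧ ∀ w, π w = v → w ∈ t) (j : ℕ) (v : V) :
    ∃ t : Finset V, t.card ≤ (j + 1) * (Δ + 1) ^ j ∧ ∀ y, Near π j y v → y ∈ t := by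
  classical
  choose t ht1 ht2 using fun b : ℕ => desc_count π Δ hΔ j (π^[b] v)
  refine ⟨(Finset.range (j + 1)).biUnion t, ?_, ?_⟩
  · calc ((Finset.range (j + 1)).biUnion t).card ≤ ∑ b ∈ Finset.range (j + 1), (t b).card :=
          Finset.card_biUnion_le
      _ ≤ ∑ _b ∈ Finset.range (j + 1), (Δ + 1) ^ j := Finset.sum_le_sum (fun b _ => ht1 b)
      _ = (j + 1) * (Δ + 1) ^ j := by rw [Finset.sum_const, smul_eq_mul, Finset.card_range]
  · rintro y ⟨a, b, ha, hb, e⟩
    rw [Finset.mem_biUnion]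
    exact ⟨b, Finset.mem_range.mpr (by omega), ht2 b y a ha e⟩

end Vale.Agent.P196.Tree
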