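import Vale.Agent.P196.Tree.Basic

namespace Vale.Agent.P196.Tree

open SimpleGraph

/-- Every tree of degree at most `Δ` can be presented by a parent map and a level function, after
adding an infinite ray above a root.
Construction: fix a root `r`.  `π (inl v)` is `inl w` with `w` the second vertex of the path from
`v` to `r` if `v ≠ r`, `π (inl r) = inr 0`, `π (inr n) = inr (n+1)`; `h (inl v)` is minus the
length of that path, `h (inr n) = n + 1`.  For adjacent `x, y` one has `π (inl x) = inl y` or
`π (inl y) = inl x`, so `Near π 1`; the general case follows by induction along a shortest walk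
with `near_trans`. -/
theorem exists_graded {V : Type} (T : SimpleGraph V) (hT : T.IsTree) (Δ : ℕ)
    (hdeg : ∀ v, ∃ t : Finset V, t.card ≤ Δ ∧ ∀ w, T.Adj v w → w ∈ t) :
    ∃ (π : V ⊕ ℕ → V ⊕ ℕ) (h : V ⊕ ℕ → ℤ), (∀ v, h (π v) = h v + 1) ∧
      (∀ v, ∃ t : Finset (V ⊕ ℕ), t.card ≤ Δ + 1 ∧ ∀ w, π w = v → w ∈ t) ∧
      (∀ x y : V, Near π (T.dist x y) (Sum.inl x) (Sum.inl y)) := by
  classical
  obtain ⟨r⟩ := hT.connected.nonempty
  have hex : ∀ v, ∃ p : T.Walk v r, p.IsPath := fun v => (hT.existsUnique_path v r).exists
  choose P hP using hex
  have huniq : ∀ v (q : T.Walk v r), q.IsPath → q = P v := fun v q hq =>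
    (hT.existsUnique_path v r).unique hq (hP v)
  set par : V → V := fun v => (P v).snd with hpar
  have hnil : ∀ v, v ≠ r → ¬ (P v).Nil := fun v hv hn => hv hn.eq
  have hadj : ∀ v, v ≠ r → T.Adj v (par v) := fun v hv => (P v).adj_snd (hnil v hv)
  have htail : ∀ v, v ≠ r → (P (par v)).length + 1 = (P v).length := by
    intro v hv
    have h1 : (P v).tail = P (par v) := huniq _ _ ((hP v).tail)
    rw [← h1]
    exact (P v).length_tail_add_one (hnil v hv)
  have hPr : (P r).length = 0 := by
    have : (Walk.nil : T.Walk r r) = P r := huniq r _ Walk.IsPath.nil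
    rw [← this]; rfl
  have hor : ∀ x y, T.Adj x y → par x = y ∨ par y = x := by
    intro x y hxy
    by_cases hy : y ∈ (P x).support
    · left
      exact (hT.isAcyclic.eq_snd_of_adj_start (hP x) hxy hy).symm
    · right
      have h1 : Walk.cons hxy.symm (P x) = P y := huniq _ _ ((hP x).cons hy)
      simp only [hpar]
      rw [← h1]
      simp
  let π : V ⊕ ℕ → V ⊕ ℕ := fun z => match z with
    | Sum.inl v => if v = r then Sum.inr 0 else Sum.inl (par v)
    | Sum.inr n => Sum.inr (n + 1)
  let h : V ⊕ ℕ → ℤ := fun z => match z with
    | Sum.inl v => - ((P v).length : ℤ)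
    | Sum.inr n => (n : ℤ) + 1
  have hπl : ∀ v, v ≠ r → π (Sum.inl v) = Sum.inl (par v) := fun v hv => by
    simp [π, hv]
  have hπr : π (Sum.inl r) = Sum.inr 0 := by simp [π]
  have hπn : ∀ n, π (Sum.inr n) = Sum.inr (n + 1) := fun n => rfl
  refine ⟨π, h, ?_, ?_, ?_⟩
  · rintro (v | n)
    · by_cases hv : v = r
      · subst hv
        rw [hπr]
        simp [h, hPr]
      · rw [hπl v hv]
        have := htail v hv
        simp only [h]
        omega
    · rw [hπn]
      simp only [h]
      push_cast
      ring
  · rintro (u | n)
    · obtain ⟨t, ht, htm⟩ := hdeg u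
      refine ⟨t.map ⟨Sum.inl, Sum.inl_injective⟩, by rw [Finset.card_map]; omega, ?_⟩
      rintro (w | m) hw
      · by_cases hwr : w = r
        · subst hwr
          rw [hπr] at hw
          exact absurd hw (by simp)
        · rw [hπl w hwr] at hw
          have hu : par w = u := Sum.inl_injective hw
          have := hadj w hwr
          rw [hu] at this
          simp only [Finset.mem_map, Function.Embedding.coeFn_mk]
          exact ⟨w, htm w this.symm, rfl⟩
      · rw [hπn] at hw
        exact absurd hw (by simp)
    · cases n with
      | zero =>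
        refine ⟨{Sum.inl r}, by simp, ?_⟩
        rintro (w | m) hw
        · by_cases hwr : w = r
          · subst hwr; simp
          · rw [hπl w hwr] at hw
            exact absurd hw (by simp)
        · rw [hπn] at hw
          have := Sum.inr_injective hw
          omega
      | succ n =>
        refine ⟨{Sum.inr n}, by simp, ?_⟩
        rintro (w | m) hw
        · by_cases hwr : w = r
          · subst hwr
            rw [hπr] at hw
            have := Sum.inr_injective hw
            omega
          · rw [hπl w hwr] at hw
            exact absurd hw (by simp)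
        · rw [hπn] at hw
          have := Sum.inr_injective hw
          have : m = n := by omega
          subst this; simp
  · have hne : ∀ x y, par x = y → T.Adj x y → π (Sum.inl x) = Sum.inl y := by
      intro x y hxy hadjxy
      have hx : x ≠ r := by
        rintro rfl
        have h0 : (Walk.nil : T.Walk x x) = P x := huniq x _ Walk.IsPath.nil
        have : par x = x := by
          simp only [hpar]
          rw [← h0]
          simp
        rw [this] at hxy
        exact hadjxy.ne hxy
      rw [hπl x hx, hxy]
    have h1 : ∀ x y, T.Adj x y → Near π 1 (Sum.inl x) (Sum.inl y) := by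
      intro x y hxy
      rcases hor x y hxy with hh | hh
      · exact ⟨1, 0, le_refl _, by omega, by simpa using hne x y hh hxy⟩
      · exact ⟨0, 1, by omega, le_refl _, by simpa using (hne y x hh hxy.symm).symm⟩
    have hw : ∀ x y (p : T.Walk x y), Near π p.length (Sum.inl x) (Sum.inl y) := by
      intro x y p
      induction p with
      | nil => exact ⟨0, 0, le_refl _, le_refl _, rfl⟩
      | cons hxz p ih =>
        rw [Walk.length_cons]
        exact near_trans ih (h1 _ _ hxz.symm)
    intro x y
    obtain ⟨p, hp⟩ := hT.connected.exists_walk_length_eq_dist x y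
    rw [← hp]
    exact hw x y p

end Vale.Agent.P196.Tree
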