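import Mathlib

namespace Vale.Agent.P196.Tree

/-- Action of a word (list of letters), the head of the list acting last. -/
def wact {α X : Type} (act : α → X → X) : List α → X → X
  | [], y => y
  | l :: w, y => act l (wact act w y)

/-- `y` is a descendant of `v` (or `v` itself) for the parent map `π`. -/
def Below {V : Type} (π : V → V) (v y : V) : Prop := ∃ k : ℕ, π^[k] y = v

/-- `x` and `y` have a common ancestor at most `N` steps above each of them. -/
def Near {V : Type} (π : V → V) (N : ℕ) (x y : V) : Prop :=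
  ∃ a b : ℕ, a ≤ N ∧ b ≤ N ∧ π^[a] x = π^[b] y

/-- A finite set `P` with maps `m l` preserving `P` on which every word of length at most `L`
that acts trivially through `act` acts trivially through `m`, and some `m l` moves a point. -/
def HasModel {α V : Type} (act : α → V → V) (L : ℕ) : Prop :=
  ∃ (P : Finset V) (m : α → V → V), (∀ l, ∀ x ∈ P, m l x ∈ P) ∧
    (∀ w : List α, w.length ≤ L → (∀ x, wact act w x = x) → ∀ x ∈ P, wact m w x = x) ∧
    (∃ l, ∃ x ∈ P, m l x ≠ x)

variable {V : Type} {π : V → V}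

lemma iter_add (a b : ℕ) (y : V) : π^[a] (π^[b] y) = π^[a + b] y := by
  rw [Function.iterate_add_apply]

lemma h_iter {h : V → ℤ} (hπ : ∀ v, h (π v) = h v + 1) (k : ℕ) (y : V) :
    h (π^[k] y) = h y + k := by
  induction k with
  | zero => simp
  | succ n ih =>
    rw [Function.iterate_succ_apply', hπ, ih]
    push_cast
    ring

lemma below_refl (v : V) : Below π v v := ⟨0, rfl⟩

lemma below_iter (k : ℕ) (y : V) : Below π (π^[k] y) y := ⟨k, rfl⟩

lemma below_trans {u v y : V} (h1 : Below π u v) (h2 : Below π v y) : Below π u y := by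
  obtain ⟨a, rfl⟩ := h1
  obtain ⟨b, rfl⟩ := h2
  exact ⟨a + b, by rw [iter_add]⟩

lemma below_level {h : V → ℤ} (hπ : ∀ v, h (π v) = h v + 1) {v y : V} (hb : Below π v y) :
    h y ≤ h v := by
  obtain ⟨k, rfl⟩ := hb
  rw [h_iter hπ]
  have : (0 : ℤ) ≤ k := by positivity
  linarith

lemma near_symm {N : ℕ} {x y : V} (hxy : Near π N x y) : Near π N y x := by
  obtain ⟨a, b, ha, hb, e⟩ := hxy
  exact ⟨b, a, hb, ha, e.symm⟩

lemma near_mono {N N' : ℕ} (hNN : N ≤ N') {x y : V} (hxy : Near π N x y) : Near π N' x y := by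
  obtain ⟨a, b, ha, hb, e⟩ := hxy
  exact ⟨a, b, ha.trans hNN, hb.trans hNN, e⟩

lemma near_level {h : V → ℤ} (hπ : ∀ v, h (π v) = h v + 1) {N : ℕ} {x y : V}
    (hxy : Near π N x y) : h y - N ≤ h x ∧ h x ≤ h y + N := by
  obtain ⟨a, b, ha, hb, e⟩ := hxy
  have := congrArg h e
  rw [h_iter hπ, h_iter hπ] at this
  have ha' : (a : ℤ) ≤ N := by exact_mod_cast ha
  have hb' : (b : ℤ) ≤ N := by exact_mod_cast hb
  have ha0 : (0 : ℤ) ≤ a := by positivity
  have hb0 : (0 : ℤ) ≤ b := by positivity
  constructor <;> linarith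

/-- triangle inequality for `Near` -/
lemma near_trans {j N : ℕ} {x y v : V} (h1 : Near π j y v) (h2 : Near π N y x) :
    Near π (j + N) x v := by
  obtain ⟨a, b, ha, hb, e⟩ := h1
  obtain ⟨a', b', ha', hb', e'⟩ := h2
  rcases le_total a' a with hle | hle
  · refine ⟨b' + (a - a'), b, by omega, by omega, ?_⟩
    have : π^[b' + (a - a')] x = π^[a - a'] (π^[b'] x) := by
      rw [iter_add]; congr 1; omega
    rw [this, ← e', iter_add, ← e]
    congr 1
    omega
  · refine ⟨b', b + (a' - a), by omega, by omega, ?_⟩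
    have : π^[b + (a' - a)] v = π^[a' - a] (π^[b] v) := by
      rw [iter_add]; congr 1; omega
    rw [this, ← e, iter_add, ← e']
    congr 1
    omega

lemma near_below_top {j : ℕ} {y v : V} (h1 : Near π j y v) : Below π (π^[j] v) y := by
  obtain ⟨a, b, _, hb, e⟩ := h1
  refine ⟨(j - b) + a, ?_⟩
  rw [← iter_add, e, iter_add]
  congr 1
  omega

/-- a point at depth at least `N` below `v` stays below `v` -/
lemma below_stable {N k : ℕ} {v y y' : V} (hk : π^[k] y = v) (hNk : N ≤ k)
    (hn : Near π N y y') : Below π v y' := by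
  obtain ⟨a, b, ha, _, e⟩ := hn
  refine ⟨(k - a) + b, ?_⟩
  rw [← iter_add, ← e, iter_add, ← hk]
  congr 1
  omega

/-- leaving the set below `u` lands in the collar of `u` -/
lemma exit_collar {N : ℕ} {u y y' : V} (h1 : Below π u y) (h2 : ¬ Below π u y')
    (hn : Near π N y y') : Near π N y' u := by
  obtain ⟨j, hj⟩ := h1
  obtain ⟨a, b, ha, hb, e⟩ := hn
  by_cases hja : a ≤ j
  · exfalso
    apply h2
    refine ⟨(j - a) + b, ?_⟩
    rw [← iter_add, ← e, iter_add, ← hj]
    congr 1
    omega
  · refine ⟨b, a - j, hb, by omega, ?_⟩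
    rw [← e, ← hj, iter_add]
    congr 1
    omega

/-- entering the set below `w` lands in the collar of `w` -/
lemma enter_collar {N : ℕ} {w y y' : V} (h1 : ¬ Below π w y) (h2 : Below π w y')
    (hn : Near π N y y') : Near π N y' w := by
  obtain ⟨j, hj⟩ := h2
  obtain ⟨a, b, ha, hb, e⟩ := hn
  by_cases hjb : b ≤ j
  · exfalso
    apply h1
    refine ⟨(j - b) + a, ?_⟩
    rw [← iter_add, e, iter_add, ← hj]
    congr 1
    omega
  · exact ⟨j, 0, by omega, by omega, by simpa using hj⟩

end Vale.Agent.P196.Tree
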