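import Vale.Agent.P196.Tree.Basic

namespace Vale.Agent.P196.Tree

/-- some point of `B` lies below `c` -/
def Unclean {V : Type} (π : V → V) (B : Finset V) (c : V) : Prop := ∃ β ∈ B, Below π c β

/-- `y` has two distinct children with points of `B` below them -/
def Branching {V : Type} (π : V → V) (B : Finset V) (y : V) : Prop :=
  ∃ c c', c ≠ c' ∧ π c = y ∧ π c' = y ∧ Unclean π B c ∧ Unclean π B c'

/-- description of the branching vertices created by a new point `β` -/
lemma new_branching {V : Type} [DecidableEq V] (π : V → V) (h : V → ℤ)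
    (hπ : ∀ v, h (π v) = h v + 1) (B : Finset V) (β y : V)
    (h1 : Branching π (insert β B) y) (h2 : ¬ Branching π B y) :
    ∃ k : ℕ, y = π^[k + 1] β ∧ ¬ Unclean π B (π^[k] β) ∧ ∃ c, π c = y ∧ Unclean π B c := by
  have hun : ∀ c, Unclean π (insert β B) c → Below π c β ∨ Unclean π B c := by
    rintro c ⟨b, hb, hbc⟩
    rcases Finset.mem_insert.mp hb with rfl | hb
    · exact Or.inl hbc
    · exact Or.inr ⟨b, hb, hbc⟩
  obtain ⟨c, c', hne, hc, hc', hu, hu'⟩ := h1
  -- a helper: given children `a ≠ b` of `y`, `a` not unclean for `B`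
  have key : ∀ a b, a ≠ b → π a = y → π b = y → Unclean π (insert β B) a →
      Unclean π (insert β B) b → ¬ Unclean π B a →
      ∃ k : ℕ, y = π^[k + 1] β ∧ ¬ Unclean π B (π^[k] β) ∧ ∃ c, π c = y ∧ Unclean π B c := by
    intro a b hab ha hb hua hub hna
    rcases hun a hua with ⟨k, hk⟩ | hx
    · refine ⟨k, by rw [Function.iterate_succ_apply', hk, ha], by rw [hk]; exact hna, b, hb, ?_⟩
      rcases hun b hub with ⟨k', hk'⟩ | hx
      · exfalso
        have e1 : h a = h β + k := by rw [← hk, h_iter hπ]
        have e2 : h b = h β + k' := by rw [← hk', h_iter hπ]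
        have e3 : h a + 1 = h b + 1 := by rw [← hπ, ← hπ, ha, hb]
        have : k = k' := by
          have : (k : ℤ) = k' := by linarith
          exact_mod_cast this
        subst this
        exact hab (hk.symm.trans hk')
      · exact hx
    · exact absurd hx hna
  by_cases hcB : Unclean π B c
  · by_cases hcB' : Unclean π B c'
    · exact absurd ⟨c, c', hne, hc, hc', hcB, hcB'⟩ h2
    · exact key c' c hne.symm hc' hc hu' hu hcB'
  · exact key c c' hne hc hc' hu hu' hcB

/-- There are at most `|B|` branching vertices. -/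
lemma branching_count {V : Type} (π : V → V) (h : V → ℤ) (hπ : ∀ v, h (π v) = h v + 1)
    (B : Finset V) :
    ∃ t : Finset V, t.card ≤ B.card ∧ ∀ y, Branching π B y → y ∈ t := by
  classical
  induction B using Finset.induction_on with
  | empty =>
    refine ⟨∅, by simp, ?_⟩
    rintro y ⟨c, _, _, _, _, ⟨b, hb, _⟩, _⟩
    simp at hb
  | insert β B hβ ih =>
    obtain ⟨t, ht, ht2⟩ := ih
    have huniq : ∀ y₁ y₂, Branching π (insert β B) y₁ → ¬ Branching π B y₁ →
        Branching π (insert β B) y₂ → ¬ Branching π B y₂ → y₁ = y₂ := by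
      intro y₁ y₂ a1 b1 a2 b2
      obtain ⟨k₁, e₁, n₁, c₁, hc₁, u₁⟩ := new_branching π h hπ B β y₁ a1 b1
      obtain ⟨k₂, e₂, n₂, c₂, hc₂, u₂⟩ := new_branching π h hπ B β y₂ a2 b2
      have aux : ∀ (k k' : ℕ) (y c : V), k < k' → y = π^[k + 1] β → π c = y → Unclean π B c →
          Unclean π B (π^[k'] β) := by
        intro k k' y c hkk ey hc hu
        obtain ⟨b, hb, hbc⟩ := hu
        refine ⟨b, hb, ?_⟩
        have h1 : Below π y c := ⟨1, by simpa using hc⟩
        have h2 : Below π (π^[k'] β) y := by
          refine ⟨k' - (k + 1), ?_⟩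
          rw [ey, iter_add]
          congr 1
          omega
        exact below_trans h2 (below_trans h1 hbc)
      rcases lt_trichotomy k₁ k₂ with hlt | heq | hlt
      · exact absurd (aux k₁ k₂ y₁ c₁ hlt e₁ hc₁ u₁) n₂
      · rw [e₁, e₂, heq]
      · exact absurd (aux k₂ k₁ y₂ c₂ hlt e₂ hc₂ u₂) n₁
    by_cases hex : ∃ y₀, Branching π (insert β B) y₀ ∧ ¬ Branching π B y₀
    · obtain ⟨y₀, a0, b0⟩ := hex
      refine ⟨insert y₀ t, ?_, ?_⟩
      · rw [Finset.card_insert_of_notMem hβ]
        exact le_trans (Finset.card_insert_le _ _) (by omega)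
      · intro y hy
        by_cases hyB : Branching π B y
        · exact Finset.mem_insert_of_mem (ht2 y hyB)
        · rw [huniq y y₀ hy hyB a0 b0]
          exact Finset.mem_insert_self _ _
    · push Not at hex
      refine ⟨t, ?_, ?_⟩
      · rw [Finset.card_insert_of_notMem hβ]
        omega
      · intro y hy
        exact ht2 y (hex y hy)

end Vale.Agent.P196.Tree
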