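import Vale.Agent.P196.Tree.TwoCut

namespace Vale.Agent.P196.Tree

/-- Two collars with equal codes (with respect to labellings injective on the collars) are
isomorphic. -/
lemma collarIso_of_code {α V : Type} {c : ℕ} (π : V → V) (act : α → V → V) (A : Set V) (ρ : ℕ)
    (u w : V) (eu ew : V → Fin c)
    (hu : ∀ y y', Near π ρ y u → Near π ρ y' u → eu y = eu y' → y = y')
    (hw : ∀ y y', Near π ρ y w → Near π ρ y' w → ew y = ew y' → y = y')
    (hocc : ∀ a, (∃ y, Near π ρ y u ∧ eu y = a) ↔ (∃ y, Near π ρ y w ∧ ew y = a))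
    (hA : ∀ a, (∃ y, Near π ρ y u ∧ y ∈ A ∧ eu y = a) ↔ (∃ y, Near π ρ y w ∧ y ∈ A ∧ ew y = a))
    (hbel : ∀ a, (∃ y, Near π ρ y u ∧ Below π u y ∧ eu y = a) ↔
      (∃ y, Near π ρ y w ∧ Below π w y ∧ ew y = a))
    (htr : ∀ l a b, (∃ y, Near π ρ y u ∧ Near π ρ (act l y) u ∧ eu y = a ∧ eu (act l y) = b) ↔
      (∃ y, Near π ρ y w ∧ Near π ρ (act l y) w ∧ ew y = a ∧ ew (act l y) = b)) :
    ∃ θ θ', CollarIso π act A ρ u w θ θ' := by
  classical
  have h1 : ∀ y, ∃ y', Near π ρ y u → (Near π ρ y' w ∧ ew y' = eu y) := by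
    intro y
    by_cases hy : Near π ρ y u
    · obtain ⟨y', hy', e⟩ := (hocc (eu y)).mp ⟨y, hy, rfl⟩
      exact ⟨y', fun _ => ⟨hy', e⟩⟩
    · exact ⟨y, fun h => absurd h hy⟩
  have h2 : ∀ y, ∃ y', Near π ρ y w → (Near π ρ y' u ∧ eu y' = ew y) := by
    intro y
    by_cases hy : Near π ρ y w
    · obtain ⟨y', hy', e⟩ := (hocc (ew y)).mpr ⟨y, hy, rfl⟩
      exact ⟨y', fun _ => ⟨hy', e⟩⟩
    · exact ⟨y, fun h => absurd h hy⟩
  choose θ hθ using h1
  choose θ' hθ' using h2
  refine ⟨θ, θ', ?_⟩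
  constructor
  · intro y hy
    exact (hθ y hy).1
  · intro y hy
    exact (hθ' y hy).1
  · intro y hy
    have a1 := hθ y hy
    have a2 := hθ' (θ y) a1.1
    exact hu _ _ a2.1 hy (a2.2.trans a1.2)
  · intro y hy
    have a1 := hθ' y hy
    have a2 := hθ (θ' y) a1.1
    exact hw _ _ a2.1 hy (a2.2.trans a1.2)
  · intro y hy
    have a1 := hθ y hy
    constructor
    · intro hyA
      obtain ⟨y', hy', hA', e⟩ := (hA (eu y)).mp ⟨y, hy, hyA, rfl⟩
      have : y' = θ y := hw _ _ hy' a1.1 (e.trans a1.2.symm)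
      rwa [← this]
    · intro hyA
      obtain ⟨y', hy', hA', e⟩ := (hA (ew (θ y))).mpr ⟨θ y, a1.1, hyA, rfl⟩
      have : y' = y := hu _ _ hy' hy (e.trans a1.2)
      rwa [← this]
  · intro y hy
    have a1 := hθ y hy
    constructor
    · intro hyA
      obtain ⟨y', hy', hA', e⟩ := (hbel (eu y)).mp ⟨y, hy, hyA, rfl⟩
      have : y' = θ y := hw _ _ hy' a1.1 (e.trans a1.2.symm)
      rwa [← this]
    · intro hyA
      obtain ⟨y', hy', hA', e⟩ := (hbel (ew (θ y))).mpr ⟨θ y, a1.1, hyA, rfl⟩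
      have : y' = y := hu _ _ hy' hy (e.trans a1.2)
      rwa [← this]
  · intro l y hy hly
    have a1 := hθ y hy
    have a2 := hθ (act l y) hly
    obtain ⟨y', hy', hly', e, e'⟩ := (htr l (eu y) (eu (act l y))).mp ⟨y, hy, hly, rfl, rfl⟩
    have b1 : y' = θ y := hw _ _ hy' a1.1 (e.trans a1.2.symm)
    have b2 : act l y' = θ (act l y) := hw _ _ hly' a2.1 (e'.trans a2.2.symm)
    rw [← b2, b1]
  · intro l y hy hly
    have a1 := hθ' y hy
    have a2 := hθ' (act l y) hly
    obtain ⟨y', hy', hly', e, e'⟩ := (htr l (ew y) (ew (act l y))).mpr ⟨y, hy, hly, rfl, rfl⟩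
    have b1 : y' = θ' y := hu _ _ hy' a1.1 (e.trans a1.2.symm)
    have b2 : act l y' = θ' (act l y) := hu _ _ hly' a2.1 (e'.trans a2.2.symm)
    rw [← b2, b1]

/-- A set contained in a finset of card at most `c`, with `c` positive, has a labelling by
`Fin c` which is injective on it. -/
lemma exists_label {V : Type} {c : ℕ} (hc : 0 < c) (t : Finset V) (ht : t.card ≤ c) :
    ∃ e : V → Fin c, ∀ y y', y ∈ t → y' ∈ t → e y = e y' → y = y' := by
  classical
  have : Fintype.card t ≤ Fintype.card (Fin c) := by simpa using ht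
  obtain ⟨f⟩ := Function.Embedding.nonempty_of_card_le this
  refine ⟨fun y => if h : y ∈ t then f ⟨y, h⟩ else ⟨0, hc⟩, ?_⟩
  intro y y' hy hy' e
  simp only [dif_pos hy, dif_pos hy'] at e
  have := f.injective e
  exact congrArg Subtype.val this

/-- Pigeonhole on isomorphism types of collars.
Proof.  For each `i` choose a map `e i : V → Fin c` injective on the collar `K i` of `s i`
(possible since the collar lies in a finset of card at most `c`; if `c = 0` all collars are empty,
but `s i` lies in its own collar, so `c ≥ 1`).  The code of `i` consists of the predicates on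
`Fin c`, resp. `α × Fin c × Fin c`:
 `occ a := ∃ y ∈ K i, e i y = a`, `inA a := ∃ y ∈ K i, y ∈ A ∧ e i y = a`,
 `bel a := ∃ y ∈ K i, Below π (s i) y ∧ e i y = a`,
 `tr l a b := ∃ y ∈ K i, act l y ∈ K i ∧ e i y = a ∧ e i (act l y) = b`.
The type of codes is finite; let `κ` be its cardinality and apply the pigeonhole principle to
`Fin (κ + 1)`.  If `i < j` have equal codes let `θ y` be the point `y'` of `K j` with
`e j y' = e i y` (for `y ∈ K i`; junk elsewhere) and `θ'` the same with `i, j` exchanged. -/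
theorem exists_collarIso {α V : Type} [Finite α] (c : ℕ) :
    ∃ κ : ℕ, ∀ (π : V → V) (act : α → V → V) (A : Set V) (ρ : ℕ) (s : ℕ → V),
      (∀ i, ∃ t : Finset V, t.card ≤ c ∧ ∀ y, Near π ρ y (s i) → y ∈ t) →
      ∃ i j, i < j ∧ j ≤ κ ∧ ∃ θ θ', CollarIso π act A ρ (s i) (s j) θ θ' := by
  classical
  let C : Type := (Fin c → Prop) × (Fin c → Prop) × (Fin c → Prop) × (α → Fin c → Fin c → Prop)
  have : Finite C := by
    show Finite ((Fin c → Prop) × (Fin c → Prop) × (Fin c → Prop) × (α → Fin c → Fin c → Prop))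
    infer_instance
  have : Fintype C := Fintype.ofFinite C
  refine ⟨Fintype.card C, ?_⟩
  intro π act A ρ s hs
  have hc : 0 < c := by
    obtain ⟨t, ht, hmem⟩ := hs 0
    have : s 0 ∈ t := hmem _ ⟨0, 0, Nat.zero_le _, Nat.zero_le _, rfl⟩
    have : 0 < t.card := Finset.card_pos.mpr ⟨_, this⟩
    omega
  have he : ∀ i, ∃ e : V → Fin c,
      ∀ y y', Near π ρ y (s i) → Near π ρ y' (s i) → e y = e y' → y = y' := by
    intro i
    obtain ⟨t, ht, hmem⟩ := hs i
    obtain ⟨e, he⟩ := exists_label hc t ht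
    exact ⟨e, fun y y' hy hy' => he y y' (hmem y hy) (hmem y' hy')⟩
  choose e he using he
  let code : Fin (Fintype.card C + 1) → C := fun i =>
    (fun a => ∃ y, Near π ρ y (s i) ∧ e i y = a,
     fun a => ∃ y, Near π ρ y (s i) ∧ y ∈ A ∧ e i y = a,
     fun a => ∃ y, Near π ρ y (s i) ∧ Below π (s i) y ∧ e i y = a,
     fun l a b => ∃ y, Near π ρ y (s i) ∧ Near π ρ (act l y) (s i) ∧ e i y = a ∧
       e i (act l y) = b)
  have hlt : Fintype.card C < Fintype.card (Fin (Fintype.card C + 1)) := by simp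
  obtain ⟨i, j, hij, hcode⟩ := Fintype.exists_ne_map_eq_of_card_lt code hlt
  have key : ∀ i j : Fin (Fintype.card C + 1), code i = code j →
      ∃ θ θ', CollarIso π act A ρ (s i) (s j) θ θ' := by
    intro i j hcode
    have c1 := congrArg (fun x : C => x.1) hcode
    have c2 := congrArg (fun x : C => x.2.1) hcode
    have c3 := congrArg (fun x : C => x.2.2.1) hcode
    have c4 := congrArg (fun x : C => x.2.2.2) hcode
    simp only [code] at c1 c2 c3 c4
    apply collarIso_of_code π act A ρ (s i) (s j) (e i) (e j) (he i) (he j)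
    · intro a
      exact iff_of_eq (congrFun c1 a)
    · intro a
      exact iff_of_eq (congrFun c2 a)
    · intro a
      exact iff_of_eq (congrFun c3 a)
    · intro l a b
      exact iff_of_eq (congrFun (congrFun (congrFun c4 l) a) b)
  rcases lt_or_gt_of_ne hij with hlt' | hlt'
  · exact ⟨i, j, hlt', Nat.lt_succ_iff.mp j.2, key i j hcode⟩
  · exact ⟨j, i, hlt', Nat.lt_succ_iff.mp i.2, key j i hcode.symm⟩

end Vale.Agent.P196.Tree
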