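import Vale.Agent.P196.Tree.LemmaF
import Vale.Agent.P196.Tree.Code

namespace Vale.Agent.P196.Tree

open Classical in
/-- Combinatorial core: a bounded-displacement system of invertible letters on a graded forest of
bounded degree which has Folner sets consisting of moved points has a finite nontrivial model. -/
theorem hasModel_of_folner {α V : Type} [Finite α] (π : V → V) (h : V → ℤ)
    (hπ : ∀ v, h (π v) = h v + 1) (Δ : ℕ)
    (hΔ : ∀ v, ∃ t : Finset V, t.card ≤ Δ ∧ ∀ w, π w = v → w ∈ t)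
    (act : α → V → V) (linv : α → α) (hinv : ∀ l x, act (linv l) (act l x) = x)
    (N L : ℕ) (hL : 1 ≤ L) (hN : ∀ l x, Near π N x (act l x))
    (hfol : ∀ M : ℕ, ∃ A : Finset V, A.Nonempty ∧ (∀ x ∈ A, ∃ l, act l x ≠ x) ∧
      M * (A.filter (fun x => ∃ l, act l x ∉ A)).card ≤ A.card) :
    HasModel act L := by
  set ρ := L * N with hρ
  obtain ⟨κ, hκ⟩ := exists_collarIso (α := α) (V := V) ((ρ + 1) * (Δ + 1) ^ ρ)
  set q₀ := ρ + 2 * N + 1 with hq₀
  set ℓ := 2 * ρ + 1 + κ * q₀ with hℓ
  set W := (Δ + 1) ^ (2 * ℓ) with hW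
  set M := 3 * W + 1 with hM
  -- the class of Folner sets and a minimal element
  let Good : Finset V → Prop := fun A => A.Nonempty ∧ (∀ x ∈ A, ∃ l, act l x ≠ x) ∧
      M * (A.filter (fun x => ∃ l, act l x ∉ A)).card ≤ A.card
  have hex : ∃ n, ∃ A, Good A ∧ A.card = n := by
    obtain ⟨A, hA⟩ := hfol M
    exact ⟨A.card, A, hA, rfl⟩
  obtain ⟨A, hA, hAcard⟩ := Nat.find_spec hex
  have hmin : ∀ A', Good A' → A.card ≤ A'.card := by
    intro A' hA'
    rw [hAcard]
    exact Nat.find_min' hex ⟨A', hA', rfl⟩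
  obtain ⟨hAne, hAmov, hAfol⟩ := hA
  set B := A.filter (fun x => ∃ l, act l x ∉ A) with hB
  have hnotB : ∀ y ∈ A, y ∉ B → ∀ l, act l y ∈ A := by
    intro y hy hyB l
    by_contra hl
    exact hyB (Finset.mem_filter.mpr ⟨hy, l, hl⟩)
  by_cases hBe : B = ∅
  · -- invariant finite set
    obtain ⟨x, hx⟩ := hAne
    obtain ⟨l, hl⟩ := hAmov x hx
    refine ⟨A, act, ?_, ?_, l, x, hx, hl⟩
    · intro l y hy
      exact hnotB y hy (by rw [hBe]; simp) l
    · intro w _ hw y _
      exact hw y
  have hBpos : 1 ≤ B.card := Finset.card_pos.mpr (Finset.nonempty_iff_ne_empty.mpr hBe)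
  have hcard : (2 * B.card + 1) * (Δ + 1) ^ (2 * ℓ) < A.card := by
    have h1 : (2 * B.card + 1) * W ≤ 3 * B.card * W := Nat.mul_le_mul_right W (by omega)
    have h2 : 3 * B.card * W < M * B.card := by
      rw [hM]
      nlinarith
    exact lt_of_le_of_lt h1 (lt_of_lt_of_le h2 hAfol)
  obtain ⟨z, hzB, ⟨xlow, hxlowA, hxlow⟩, ⟨xhigh, hxhighA, hxhigh⟩⟩ :=
    lemmaF π h hπ Δ hΔ A B ℓ hcard
  let s : ℕ → V := fun i => π^[ρ + 1 + (κ - i) * q₀] z
  obtain ⟨i, j, hij, hjκ, θ, θ', hθ⟩ := hκ π act (A : Set V) ρ s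
    (fun i => collar_count π Δ hΔ ρ (s i))
  set u := s i with hu
  set w := s j with hw
  have hq : π^[(j - i) * q₀] w = u := by
    simp only [hu, hw, s]
    rw [iter_add]
    congr 1
    have : κ - i = (κ - j) + (j - i) := by omega
    rw [this]
    ring
  have hqbig : L * N + 2 * N < (j - i) * q₀ := by
    have : 1 ≤ j - i := by omega
    calc L * N + 2 * N < q₀ := by rw [hq₀, hρ]; omega
      _ = 1 * q₀ := by ring
      _ ≤ (j - i) * q₀ := Nat.mul_le_mul_right q₀ this
  have hzw : Below π w z := ⟨_, rfl⟩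
  have hwu : Below π u w := ⟨_, hq⟩
  have hlev : ∀ k, h (s k) = h z + (ρ + 1 + (κ - k) * q₀ : ℕ) := by
    intro k
    simp only [s]
    rw [h_iter hπ]
  have htop : ∀ k, Below π (π^[ℓ] z) (π^[ρ] (s k)) := by
    intro k
    refine ⟨ℓ - (ρ + (ρ + 1 + (κ - k) * q₀)), ?_⟩
    simp only [s]
    rw [iter_add, iter_add]
    congr 1
    have : (κ - k) * q₀ ≤ κ * q₀ := Nat.mul_le_mul_right q₀ (Nat.sub_le κ k)
    omega
  have hcollar : ∀ k, ∀ y ∈ A, Near π ρ y (s k) → y ∉ B := by
    intro k y _ hy hyB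
    have h1 : Below π (π^[ℓ] z) y := below_trans (htop k) (near_below_top hy)
    have h2 := below_level hπ (hzB y hyB h1)
    have h3 := (near_level hπ hy).1
    rw [hlev k] at h3
    push_cast at h3
    have : (0 : ℤ) ≤ ((κ - k : ℕ) : ℤ) * q₀ := by positivity
    linarith
  have hutop : Below π (π^[ℓ] z) u := below_trans (htop i) (below_iter ρ u)
  have hgood : ∀ y ∈ A,
      (Near π (L * N) y u ∨ Near π (L * N) y w ∨ (Below π u y ∧ ¬ Below π w y)) →
        ∀ l, act l y ∈ A := by
    intro y hy hcase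
    apply hnotB y hy
    rcases hcase with hc | hc | hc
    · exact hcollar i y hy hc
    · exact hcollar j y hy hc
    · intro hyB
      exact hc.2 (below_trans hzw (hzB y hyB (below_trans hutop hc.1)))
  -- the piece between the two cuts is populated
  have hpop : ∃ x₀ ∈ A, Below π u x₀ ∧ ¬ Below π w x₀ := by
    by_contra hcon
    push Not at hcon
    let A₁ := A.filter (fun y => Below π w y)
    let A₂ := A.filter (fun y => ¬ Below π u y)
    have hsplit : ∀ y ∈ A, y ∈ A₁ ∨ y ∈ A₂ := by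
      intro y hy
      by_cases h1 : Below π u y
      · exact Or.inl (Finset.mem_filter.mpr ⟨hy, hcon y hy h1⟩)
      · exact Or.inr (Finset.mem_filter.mpr ⟨hy, h1⟩)
    have hdisj : Disjoint A₁ A₂ := by
      rw [Finset.disjoint_left]
      intro y h1 h2
      exact (Finset.mem_filter.mp h2).2 (below_trans hwu (Finset.mem_filter.mp h1).2)
    have hunion : A₁ ∪ A₂ = A := by
      ext y
      constructor
      · intro hy
        rcases Finset.mem_union.mp hy with h1 | h1
        · exact (Finset.mem_filter.mp h1).1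
        · exact (Finset.mem_filter.mp h1).1
      · intro hy
        exact Finset.mem_union.mpr (hsplit y hy)
    have harrow1 : ∀ y ∈ A₁, ∀ l, act l y ∈ A → act l y ∈ A₁ := by
      intro y hy l hl
      obtain ⟨k, hk⟩ := (Finset.mem_filter.mp hy).2
      have h1 : π^[(j - i) * q₀ + k] y = u := by rw [← iter_add, hk, hq]
      have h2 : Below π u (act l y) := below_stable h1 (by omega) (hN l y)
      exact Finset.mem_filter.mpr ⟨hl, hcon _ hl h2⟩
    have harrow2 : ∀ y ∈ A₂, ∀ l, act l y ∈ A → act l y ∈ A₂ := by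
      intro y hy l hl
      rcases hsplit _ hl with h1 | h1
      · exfalso
        have h2 := harrow1 _ h1 (linv l) (by rw [hinv]; exact (Finset.mem_filter.mp hy).1)
        rw [hinv] at h2
        exact Finset.disjoint_left.mp hdisj h2 hy
      · exact h1
    have hbd1 : A₁.filter (fun x => ∃ l, act l x ∉ A₁) = B.filter (fun y => Below π w y) := by
      ext y
      simp only [Finset.mem_filter, hB, A₁]
      constructor
      · rintro ⟨⟨hy, hyw⟩, l, hl⟩
        refine ⟨⟨hy, l, ?_⟩, hyw⟩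
        intro hA'
        exact hl (Finset.mem_filter.mp (harrow1 y (Finset.mem_filter.mpr ⟨hy, hyw⟩) l hA'))
      · rintro ⟨⟨hy, l, hl⟩, hyw⟩
        exact ⟨⟨hy, hyw⟩, l, fun h' => hl h'.1⟩
    have hbd2 : A₂.filter (fun x => ∃ l, act l x ∉ A₂) = B.filter (fun y => ¬ Below π u y) := by
      ext y
      simp only [Finset.mem_filter, hB, A₂]
      constructor
      · rintro ⟨⟨hy, hyw⟩, l, hl⟩
        refine ⟨⟨hy, l, ?_⟩, hyw⟩
        intro hA'
        exact hl (Finset.mem_filter.mp (harrow2 y (Finset.mem_filter.mpr ⟨hy, hyw⟩) l hA'))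
      · rintro ⟨⟨hy, l, hl⟩, hyw⟩
        exact ⟨⟨hy, hyw⟩, l, fun h' => hl h'.1⟩
    have hBsum : (B.filter (fun y => Below π w y)).card + (B.filter (fun y => ¬ Below π u y)).card
        ≤ B.card := by
      rw [← Finset.card_union_of_disjoint]
      · apply Finset.card_le_card
        intro y hy
        rcases Finset.mem_union.mp hy with h1 | h1
        · exact (Finset.mem_filter.mp h1).1
        · exact (Finset.mem_filter.mp h1).1
      · rw [Finset.disjoint_left]
        intro y h1 h2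
        exact (Finset.mem_filter.mp h2).2 (below_trans hwu (Finset.mem_filter.mp h1).2)
    have hAsum : A₁.card + A₂.card = A.card := by
      rw [← Finset.card_union_of_disjoint hdisj, hunion]
    have hne1 : A₁.Nonempty := ⟨xlow, Finset.mem_filter.mpr ⟨hxlowA, below_trans hzw hxlow⟩⟩
    have hne2 : A₂.Nonempty :=
      ⟨xhigh, Finset.mem_filter.mpr ⟨hxhighA, fun hb => hxhigh (below_trans hutop hb)⟩⟩
    have hlt1 : A₁.card < A.card := by
      have := Finset.card_pos.mpr hne2
      omega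
    have hlt2 : A₂.card < A.card := by
      have := Finset.card_pos.mpr hne1
      omega
    have hor : M * (A₁.filter (fun x => ∃ l, act l x ∉ A₁)).card ≤ A₁.card ∨
        M * (A₂.filter (fun x => ∃ l, act l x ∉ A₂)).card ≤ A₂.card := by
      rw [hbd1, hbd2]
      by_contra hno
      push Not at hno
      have h3 : M * ((B.filter (fun y => Below π w y)).card +
          (B.filter (fun y => ¬ Below π u y)).card) ≤ M * B.card := Nat.mul_le_mul_left M hBsum
      rw [Nat.mul_add] at h3
      omega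
    rcases hor with h1 | h1
    · have := hmin A₁ ⟨hne1, fun x hx => hAmov x (Finset.mem_filter.mp hx).1, h1⟩
      omega
    · have := hmin A₂ ⟨hne2, fun x hx => hAmov x (Finset.mem_filter.mp hx).1, h1⟩
      omega
  obtain ⟨x₀, hx₀, hx₀u, hx₀w⟩ := hpop
  obtain ⟨l₀, hl₀⟩ := hAmov x₀ hx₀
  exact twoCut π h hπ act N L hL hN A u w ((j - i) * q₀) hq hqbig hgood θ θ' hθ x₀ hx₀ hx₀u hx₀w
    l₀ hl₀

end Vale.Agent.P196.Tree
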