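import Vale.Agent.P196.Tree.Count
import Vale.Agent.P196.Tree.Branch

namespace Vale.Agent.P196.Tree

lemma below_iter_le {V : Type} {π : V → V} {a b : ℕ} (hab : a ≤ b) (x : V) :
    Below π (π^[b] x) (π^[a] x) := by
  refine ⟨b - a, ?_⟩
  rw [iter_add]
  congr 1
  omega

/-- If `A` is much larger than `B` there is a vertex `z` such that no point of `B` lies below
`π^[ℓ] z` without lying below `z`, some point of `A` lies below `z` and some point of `A` does
not lie below `π^[ℓ] z`.

Proof.  Suppose not.  Call `x ∈ A` a top point if all of `A` lies below `π^[2ℓ] x`.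
(1) All top points lie at depth at most `2ℓ` below `π^[2ℓ] x₁`, where `x₁` is a top point of
minimal level `h`; so there are at most `(Δ+1)^(2ℓ)` of them (desc_count).
(2) Let `x ∈ A` be not top.  Then some point of `A` is not below `π^[2ℓ] x`, hence not below
`π^[ℓ] x`.  As `z = x` fails there is `β ∈ B` below `π^[ℓ] x`.  As `z = π^[ℓ] x` fails there is
`β' ∈ B` below `π^[2ℓ] x` and not below `π^[ℓ] x`.  Let `j` be minimal with `β'` below `π^[j] x`;
`ℓ < j ≤ 2ℓ`.  Then `y = π^[j] x` is equal to `β'` or is branching for `B` (children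
`π^[j-1] x`, which has `β` below it, and the child of `y` above `β'`).
(3) So `A` is covered by at most `1 + |B| + |B|` sets of size at most `(Δ+1)^(2ℓ)`. -/
theorem lemmaF {V : Type} (π : V → V) (h : V → ℤ) (hπ : ∀ v, h (π v) = h v + 1) (Δ : ℕ)
    (hΔ : ∀ v, ∃ t : Finset V, t.card ≤ Δ ∧ ∀ w, π w = v → w ∈ t)
    (A B : Finset V) (ℓ : ℕ) (hcard : (2 * B.card + 1) * (Δ + 1) ^ (2 * ℓ) < A.card) :
    ∃ z, (∀ β ∈ B, Below π (π^[ℓ] z) β → Below π z β) ∧ (∃ x ∈ A, Below π z x) ∧
      (∃ x ∈ A, ¬ Below π (π^[ℓ] z) x) := by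
  classical
  by_contra hcon
  have hfail : ∀ z, (∃ x ∈ A, Below π z x) → (∃ x ∈ A, ¬ Below π (π^[ℓ] z) x) →
      ∃ β ∈ B, Below π (π^[ℓ] z) β ∧ ¬ Below π z β := by
    intro z h2 h3
    by_contra hno
    apply hcon
    refine ⟨z, ?_, h2, h3⟩
    intro β hβ hb
    by_contra hnb
    exact hno ⟨β, hβ, hb, hnb⟩
  choose D hDcard hDmem using (fun v => desc_count π Δ hΔ (2 * ℓ) v)
  obtain ⟨t, htcard, htmem⟩ := branching_count π h hπ B
  set Top : Finset V := A.filter (fun x => ∀ a ∈ A, Below π (π^[2 * ℓ] x) a) with hTop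
  have htop : ∃ T0 : Finset V, T0.card ≤ (Δ + 1) ^ (2 * ℓ) ∧ Top ⊆ T0 := by
    rcases Top.eq_empty_or_nonempty with he | hne
    · exact ⟨∅, by simp, by rw [he]⟩
    · obtain ⟨x1, hx1, hmin⟩ := Finset.exists_min_image Top h hne
      refine ⟨D (π^[2 * ℓ] x1), hDcard _, ?_⟩
      intro x hx
      have hx1' := (Finset.mem_filter.1 hx1).2
      have hxA := (Finset.mem_filter.1 hx).1
      obtain ⟨k, hk⟩ := hx1' x hxA
      have hlev := congrArg h hk
      rw [h_iter hπ, h_iter hπ] at hlev
      have hle := hmin x hx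
      have hk2 : k ≤ 2 * ℓ := by
        have : (k : ℤ) ≤ ((2 * ℓ : ℕ) : ℤ) := by linarith
        exact_mod_cast this
      exact hDmem _ x k hk2 hk
  obtain ⟨T0, hT0card, hT0⟩ := htop
  have hcover : A ⊆ T0 ∪ (B ∪ t).biUnion D := by
    intro x hx
    by_cases hxtop : x ∈ Top
    · exact Finset.mem_union_left _ (hT0 hxtop)
    · apply Finset.mem_union_right
      have hnt : ∃ a ∈ A, ¬ Below π (π^[2 * ℓ] x) a := by
        by_contra hno
        apply hxtop
        rw [hTop, Finset.mem_filter]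
        refine ⟨hx, ?_⟩
        intro a ha
        by_contra hna
        exact hno ⟨a, ha, hna⟩
      obtain ⟨a, ha, hna⟩ := hnt
      have hna1 : ¬ Below π (π^[ℓ] x) a := by
        intro hb
        exact hna (below_trans (below_iter_le (by omega) x) hb)
      obtain ⟨β, hβ, hβb, _⟩ := hfail x ⟨x, hx, below_refl x⟩ ⟨a, ha, hna1⟩
      have hna2 : ¬ Below π (π^[ℓ] (π^[ℓ] x)) a := by
        rw [iter_add]
        have : ℓ + ℓ = 2 * ℓ := by ring
        rw [this]
        exact hna
      obtain ⟨β', hβ', hβ'b, hβ'n⟩ := hfail (π^[ℓ] x) ⟨x, hx, below_iter ℓ x⟩ ⟨a, ha, hna2⟩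
      have hex : ∃ j, Below π (π^[j] x) β' := ⟨ℓ + ℓ, by rw [← iter_add]; exact hβ'b⟩
      have hj := Nat.find_spec hex
      have hjmin := fun m => Nat.find_min hex (m := m)
      have hj2 : Nat.find hex ≤ ℓ + ℓ := Nat.find_min' hex (by rw [← iter_add]; exact hβ'b)
      set j := Nat.find hex with hjdef
      have hjl : ℓ < j := by
        by_contra hle
        exact hβ'n (below_trans (below_iter_le (not_lt.1 hle) x) hj)
      obtain ⟨k, hk⟩ := hj
      have hy : π^[j] x ∈ B ∪ t := by
        rcases Nat.eq_zero_or_pos k with hk0 | hkpos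
        · rw [hk0] at hk
          apply Finset.mem_union_left
          rw [← hk]
          exact hβ'
        · apply Finset.mem_union_right
          apply htmem
          refine ⟨π^[j - 1] x, π^[k - 1] β', ?_, ?_, ?_, ⟨β, hβ, ?_⟩, ⟨β', hβ', below_iter _ _⟩⟩
          · intro heq
            exact hjmin (j - 1) (by omega) ⟨k - 1, heq.symm⟩
          · rw [← Function.iterate_succ_apply' π]
            congr 1
            omega
          · rw [← Function.iterate_succ_apply' π, ← hk]
            congr 1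
            omega
          · exact below_trans (below_iter_le (by omega) x) hβb
      rw [Finset.mem_biUnion]
      exact ⟨π^[j] x, hy, hDmem _ x j (by omega) rfl⟩
  have h1 : A.card ≤ (2 * B.card + 1) * (Δ + 1) ^ (2 * ℓ) := by
    calc A.card ≤ (T0 ∪ (B ∪ t).biUnion D).card := Finset.card_le_card hcover
      _ ≤ T0.card + ((B ∪ t).biUnion D).card := Finset.card_union_le _ _
      _ ≤ (Δ + 1) ^ (2 * ℓ) + (B ∪ t).card * (Δ + 1) ^ (2 * ℓ) :=
          Nat.add_le_add hT0card (Finset.card_biUnion_le_card_mul _ _ _ (fun v _ => hDcard v))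
      _ ≤ (Δ + 1) ^ (2 * ℓ) + (B.card + B.card) * (Δ + 1) ^ (2 * ℓ) := by
          have : (B ∪ t).card ≤ B.card + B.card :=
            (Finset.card_union_le _ _).trans (Nat.add_le_add_left htcard _)
          gcongr
      _ = (2 * B.card + 1) * (Δ + 1) ^ (2 * ℓ) := by ring
  omega

end Vale.Agent.P196.Tree
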