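import Vale.Agent.P196.Tree.Basic

namespace Vale.Agent.P196.Tree

lemma finite_of_hom (G H : Type) [Group G] [Group H] [Finite H] (hS : IsSimpleGroup G)
    (f : G →* H) (g₀ : G) (h : f g₀ ≠ 1) : Finite G := by
  have hnorm : f.ker.Normal := inferInstance
  rcases hS.eq_bot_or_eq_top_of_normal _ hnorm with hbot | htop
  · exact Finite.of_injective f ((MonoidHom.ker_eq_bot_iff _).mp hbot)
  · exfalso
    apply h
    have : g₀ ∈ f.ker := by rw [htop]; exact Subgroup.mem_top _
    exact this

/-- The letter inverse to a given letter. -/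
def linv {n : ℕ} (p : Fin n × Bool) : Fin n × Bool := (p.1, !p.2)

/-- The action of the letters (generators and their inverses) given by a homomorphism. -/
def letterAct {G V : Type} [Group G] {n : ℕ} (π : FreeGroup (Fin n) →* G)
    (ψ : G →* Equiv.Perm V) (l : Fin n × Bool) (y : V) : V :=
  (cond l.2 (ψ (π (FreeGroup.of l.1))) (ψ (π (FreeGroup.of l.1)))⁻¹) y

lemma letterAct_linv {G V : Type} [Group G] {n : ℕ} (π : FreeGroup (Fin n) →* G)
    (ψ : G →* Equiv.Perm V) (l : Fin n × Bool) (y : V) :
    letterAct π ψ l (letterAct π ψ (linv l) y) = y := by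
  obtain ⟨j, b⟩ := l
  cases b <;> simp [letterAct, linv]

lemma wact_letterAct {G V : Type} [Group G] {n : ℕ} (π : FreeGroup (Fin n) →* G)
    (ψ : G →* Equiv.Perm V) (w : List (Fin n × Bool)) (y : V) :
    wact (letterAct π ψ) w y = ψ (π (FreeGroup.mk w)) y := by
  have hlift : ψ.comp π = FreeGroup.lift (fun j => ψ (π (FreeGroup.of j))) := by
    ext j
    simp
  have : ψ (π (FreeGroup.mk w)) =
      (w.map (fun x => cond x.2 (ψ (π (FreeGroup.of x.1))) (ψ (π (FreeGroup.of x.1)))⁻¹)).prod := by
    have h1 : ψ (π (FreeGroup.mk w)) = (ψ.comp π) (FreeGroup.mk w) := rfl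
    rw [h1, hlift, FreeGroup.lift_mk]
  rw [this]
  clear this
  induction w with
  | nil => simp [wact]
  | cons l w ih =>
    simp only [wact, List.map_cons, List.prod_cons, Equiv.Perm.mul_apply]
    rw [ih]
    rfl

/-- A finite nontrivial model of the relators forces a simple group to be finite. -/
theorem finite_of_hasModel (G : Type) [Group G] (hS : IsSimpleGroup G) (n : ℕ)
    (π : FreeGroup (Fin n) →* G) (hπ : Function.Surjective π) (R : Set (FreeGroup (Fin n)))
    (hR : Subgroup.normalClosure R = π.ker) (V : Type) (ψ : G →* Equiv.Perm V) (L : ℕ)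
    (hL : ∀ r ∈ R, r.toWord.length ≤ L) (hL2 : 2 ≤ L)
    (hmodel : HasModel (letterAct π ψ) L) : Finite G := by
  classical
  obtain ⟨P, m, hmP, hrel, l₀, x₀, hx₀, hne⟩ := hmodel
  have hlinv : ∀ l : Fin n × Bool, linv (linv l) = l := by
    rintro ⟨j, b⟩
    simp [linv]
  have hminv : ∀ l, ∀ i ∈ P, m l (m (linv l) i) = i := by
    intro l i hi
    have := hrel [l, linv l] (by simpa using hL2)
      (by intro x; simp only [wact]; exact letterAct_linv π ψ l x) i hi
    simpa only [wact] using this
  let T : Type := P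
  let Pm : Fin n × Bool → Equiv.Perm T := fun l =>
    { toFun := fun i => ⟨m l i.1, hmP l i.1 i.2⟩
      invFun := fun i => ⟨m (linv l) i.1, hmP (linv l) i.1 i.2⟩
      left_inv := by
        intro i
        apply Subtype.ext
        have := hminv (linv l) i.1 i.2
        rw [hlinv] at this
        exact this
      right_inv := by
        intro i
        apply Subtype.ext
        exact hminv l i.1 i.2 }
  let Φ : FreeGroup (Fin n) →* Equiv.Perm T := FreeGroup.lift (fun j => Pm (j, true))
  have hΦ : ∀ (w : List (Fin n × Bool)) (i : T), ((Φ (FreeGroup.mk w) i : T) : V) = wact m w i.1 := by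
    intro w
    rw [FreeGroup.lift_mk]
    induction w with
    | nil => intro i; simp [wact]
    | cons l w ih =>
      intro i
      simp only [wact, List.map_cons, List.prod_cons, Equiv.Perm.mul_apply]
      rw [← ih i]
      obtain ⟨j, b⟩ := l
      cases b
      · rfl
      · rfl
  have hΦR : ∀ r ∈ R, Φ r = 1 := by
    intro r hr
    have hπr : π r = 1 := by
      have : r ∈ π.ker := by
        rw [← hR]
        exact Subgroup.subset_normalClosure hr
      exact this
    ext i
    have h1 : Φ r = Φ (FreeGroup.mk r.toWord) := by rw [FreeGroup.mk_toWord]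
    rw [h1, hΦ]
    refine hrel r.toWord (hL r hr) ?_ i.1 i.2
    intro x
    rw [wact_letterAct, FreeGroup.mk_toWord, hπr, map_one]
    rfl
  have hker : π.ker ≤ Φ.ker := by
    rw [← hR]
    exact Subgroup.normalClosure_le_normal (fun r hr => hΦR r hr)
  let Φbar : G →* Equiv.Perm T := π.liftOfSurjective hπ ⟨Φ, hker⟩
  have hΦbar : ∀ w, Φbar (π w) = Φ w := by
    intro w
    exact MonoidHom.liftOfRightInverse_comp_apply _ _ _ _ _
  refine finite_of_hom G (Equiv.Perm T) hS Φbar (π (FreeGroup.of l₀.1)) ?_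
  rw [hΦbar]
  intro h1
  have h2 : Pm (l₀.1, true) = 1 := by
    have : Φ (FreeGroup.of l₀.1) = Pm (l₀.1, true) := by simp [Φ]
    rw [← this, h1]
  apply hne
  obtain ⟨j, b⟩ := l₀
  cases b
  · have h3 : (Pm (j, true)).symm ⟨x₀, hx₀⟩ = ⟨x₀, hx₀⟩ := by
      rw [h2]; rfl
    exact congrArg Subtype.val h3
  · have h3 : (Pm (j, true)) ⟨x₀, hx₀⟩ = ⟨x₀, hx₀⟩ := by
      rw [h2]; rfl
    exact congrArg Subtype.val h3

end Vale.Agent.P196.Tree
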