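import Vale.Agent.P196.Tree.Basic

namespace Vale.Agent.P196.Tree

open Classical in
/-- Amenability in the Folner form of the problem statement: for every finite `K` and `ε > 0`
there is a nonempty finite `D` with `|gD ∆ D| < ε |D|` for all `g ∈ K`. -/
def IsAmenable (G : Type) [Group G] : Prop :=
  ∀ (K : Finset G) (ε : ℝ), 0 < ε → ∃ D : Finset G, D.Nonempty ∧
    ∀ g ∈ K, ((symmDiff (D.image (fun d => g * d)) D).card : ℝ) < ε * D.card

/-- Layer cake, one value. -/
theorem sum_Icc_ite_le (n a : ℕ) (h : a ≤ n) :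
    ∑ j ∈ Finset.Icc 1 n, (if j ≤ a then 1 else 0) = a := by
  rw [← Finset.card_filter]
  have : (Finset.Icc 1 n).filter (fun j => j ≤ a) = Finset.Icc 1 a := by
    ext j; simp only [Finset.mem_filter, Finset.mem_Icc]; omega
  rw [this]; simp

/-- Layer cake, a difference of two values. -/
theorem sum_Icc_ite_le_not (n a b : ℕ) (h : a ≤ n) :
    ∑ j ∈ Finset.Icc 1 n, (if j ≤ a ∧ ¬ j ≤ b then 1 else 0) = a - b := by
  rw [← Finset.card_filter]
  have : (Finset.Icc 1 n).filter (fun j => j ≤ a ∧ ¬ j ≤ b) = Finset.Ioc b a := by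
    ext j; simp only [Finset.mem_filter, Finset.mem_Icc, Finset.mem_Ioc]; omega
  rw [this]; simp

open Classical in
/-- Folner sets of an amenable group give Folner sets in every orbit (Namioka's layer-cake trick).
Proof.  Let `D` be Folner for `K = {gen l} ∪ {(gen l)⁻¹}` and `ε = 1 / ((M+1) * (card α + 1))`.
Put `f y = card {d ∈ D | ψ d x₀ = y}` and `A_j = {y | j ≤ f y}` for `1 ≤ j ≤ |D|`.  Then
`∑_j |A_j| = |D|` and, for each letter, `∑_j card {x ∈ A_j | ψ (gen l) x ∉ A_j}
 = ∑_x (f x - f (ψ (gen l) x))⁺ ≤ |g D ∆ D|` with `g = (gen l)⁻¹`.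
So some nonempty `A_j` satisfies the inequality. -/
theorem folner_orbit {G V α : Type} [Group G] [Finite α] (hG : IsAmenable G)
    (ψ : G →* Equiv.Perm V) (gen : α → G) (x₀ : V) (M : ℕ) :
    ∃ A : Finset V, A.Nonempty ∧ (∀ x ∈ A, ∃ g : G, ψ g x₀ = x) ∧
      M * (A.filter (fun x => ∃ l, ψ (gen l) x ∉ A)).card ≤ A.card := by
  have : Fintype α := Fintype.ofFinite α
  set c := Fintype.card α with hc
  obtain ⟨D, hDne, hD⟩ := hG (Finset.univ.image (fun l => (gen l)⁻¹))
    (1 / (((M:ℝ)+1) * ((c:ℝ)+1))) (by positivity)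
  set n := D.card with hn
  have hnpos : 0 < n := Finset.card_pos.mpr hDne
  -- the Folner inequality over `ℕ`
  let t : α → ℕ := fun l => (symmDiff (D.image (fun d => (gen l)⁻¹ * d)) D).card
  have ht : ∀ l, (M+1)*(c+1) * t l < n := by
    intro l
    have h := hD ((gen l)⁻¹) (Finset.mem_image_of_mem _ (Finset.mem_univ l))
    have hpos : (0:ℝ) < ((M:ℝ)+1) * ((c:ℝ)+1) := by positivity
    rw [div_mul_eq_mul_div, one_mul, lt_div_iff₀ hpos] at h
    have : (((M+1)*(c+1) * t l : ℕ) : ℝ) < (n : ℝ) := by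
      push_cast
      linarith
    exact_mod_cast this
  let p : G → V := fun d => ψ d x₀
  let f : V → ℕ := fun y => (D.filter (fun d => p d = y)).card
  let S : Finset V := D.image p
  let A : ℕ → Finset V := fun j => S.filter (fun y => j ≤ f y)
  have hfn : ∀ y, f y ≤ n := fun y => Finset.card_filter_le _ _
  have hmemA : ∀ j, 1 ≤ j → ∀ y, y ∈ A j ↔ j ≤ f y := by
    intro j hj y
    simp only [A, Finset.mem_filter, and_iff_right_iff_imp]
    intro h
    have h0 : 0 < f y := by omega
    obtain ⟨d, hd⟩ := Finset.card_pos.mp h0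
    rw [Finset.mem_filter] at hd
    exact Finset.mem_image.mpr ⟨d, hd.1, hd.2⟩
  have hsumA : ∑ j ∈ Finset.Icc 1 n, (A j).card = n := by
    have h1 : ∀ j, (A j).card = ∑ y ∈ S, if j ≤ f y then 1 else 0 :=
      fun j => Finset.card_filter _ _
    simp_rw [h1]
    rw [Finset.sum_comm]
    have h2 : ∀ y ∈ S, ∑ j ∈ Finset.Icc 1 n, (if j ≤ f y then 1 else 0) = f y :=
      fun y _ => sum_Icc_ite_le n _ (hfn y)
    rw [Finset.sum_congr rfl h2]
    exact (Finset.card_eq_sum_card_image p D).symm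
  let B : ℕ → α → Finset V := fun j l => (A j).filter (fun x => ψ (gen l) x ∉ A j)
  have hB : ∀ l, ∑ j ∈ Finset.Icc 1 n, (B j l).card ≤ t l := by
    intro l
    have h1 : ∀ j ∈ Finset.Icc 1 n, (B j l).card =
        ∑ x ∈ S, if j ≤ f x ∧ ¬ j ≤ f (ψ (gen l) x) then 1 else 0 := by
      intro j hj
      have hj1 : 1 ≤ j := (Finset.mem_Icc.mp hj).1
      rw [← Finset.card_filter]
      congr 1
      ext x
      simp only [B, Finset.mem_filter, hmemA j hj1]
      constructor
      · rintro ⟨h1, h2⟩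
        exact ⟨(Finset.mem_filter.mp ((hmemA j hj1 x).mpr h1)).1, h1, h2⟩
      · rintro ⟨_, h1, h2⟩
        exact ⟨h1, h2⟩
    rw [Finset.sum_congr rfl h1, Finset.sum_comm]
    have h2 : ∀ x ∈ S, ∑ j ∈ Finset.Icc 1 n,
        (if j ≤ f x ∧ ¬ j ≤ f (ψ (gen l) x) then 1 else 0) = f x - f (ψ (gen l) x) :=
      fun x _ => sum_Icc_ite_le_not n _ _ (hfn x)
    rw [Finset.sum_congr rfl h2]
    -- the set `D \ s⁻¹ D`
    set D' : Finset G := D.image (fun d => (gen l)⁻¹ * d) with hD'
    have hmemD' : ∀ d, d ∈ D' ↔ gen l * d ∈ D := by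
      intro d
      simp only [hD', Finset.mem_image]
      constructor
      · rintro ⟨e, he, rfl⟩
        simpa using he
      · intro h
        exact ⟨gen l * d, h, by simp⟩
    have h3 : ∀ x ∈ S, f x - f (ψ (gen l) x) ≤ ((D \ D').filter (fun d => p d = x)).card := by
      intro x _
      have hsplit : f x = ((D ∩ D').filter (fun d => p d = x)).card
          + ((D \ D').filter (fun d => p d = x)).card := by
        rw [← Finset.card_union_of_disjoint, ← Finset.filter_union, Finset.union_comm,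
          Finset.sdiff_union_inter]
        exact Finset.disjoint_filter_filter (Finset.disjoint_sdiff_inter _ _).symm
      have hinj : ((D ∩ D').filter (fun d => p d = x)).card ≤ f (ψ (gen l) x) := by
        apply Finset.card_le_card_of_injOn (fun d => gen l * d)
        · intro d hd
          simp only [Finset.coe_filter, Finset.mem_inter, Set.mem_ofPred_eq] at hd
          simp only [Finset.coe_filter, Set.mem_ofPred_eq]
          refine ⟨(hmemD' d).mp hd.1.2, ?_⟩
          simp only [p, map_mul, Equiv.Perm.mul_apply]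
          rw [← hd.2]
        · intro a _ b _ hab
          exact mul_left_cancel hab
      omega
    calc ∑ x ∈ S, (f x - f (ψ (gen l) x))
        ≤ ∑ x ∈ S, ((D \ D').filter (fun d => p d = x)).card := Finset.sum_le_sum h3
      _ = (D \ D').card := by
          refine (Finset.card_eq_sum_card_fiberwise ?_).symm
          intro d hd
          exact Finset.mem_image_of_mem p (Finset.mem_sdiff.mp hd).1
      _ ≤ t l := by
          apply Finset.card_le_card
          intro d hd
          rw [Finset.mem_symmDiff]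
          exact Or.inr (Finset.mem_sdiff.mp hd)
  -- the full boundary
  let E : ℕ → Finset V := fun j => (A j).filter (fun x => ∃ l, ψ (gen l) x ∉ A j)
  have hE : ∀ j, (E j).card ≤ ∑ l, (B j l).card := by
    intro j
    have hsub : E j ⊆ Finset.univ.biUnion (fun l => B j l) := by
      intro x hx
      obtain ⟨hxA, l, hl⟩ := Finset.mem_filter.mp hx
      exact Finset.mem_biUnion.mpr ⟨l, Finset.mem_univ l, Finset.mem_filter.mpr ⟨hxA, hl⟩⟩
    exact (Finset.card_le_card hsub).trans Finset.card_biUnion_le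
  have hsumE : ∑ j ∈ Finset.Icc 1 n, (E j).card ≤ ∑ l, t l := by
    calc ∑ j ∈ Finset.Icc 1 n, (E j).card
        ≤ ∑ j ∈ Finset.Icc 1 n, ∑ l, (B j l).card := Finset.sum_le_sum (fun j _ => hE j)
      _ = ∑ l, ∑ j ∈ Finset.Icc 1 n, (B j l).card := Finset.sum_comm
      _ ≤ ∑ l, t l := Finset.sum_le_sum (fun l _ => hB l)
  have hT : (M+1)*(c+1) * ∑ l, t l ≤ c * n := by
    rw [Finset.mul_sum]
    calc ∑ l, (M+1)*(c+1) * t l ≤ ∑ _l : α, n := Finset.sum_le_sum (fun l _ => (ht l).le)
      _ = c * n := by simp [hc]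
  have hlt : ∑ j ∈ Finset.Icc 1 n, M * (E j).card < ∑ j ∈ Finset.Icc 1 n, (A j).card := by
    rw [hsumA, ← Finset.mul_sum]
    by_contra hcon
    rw [not_lt] at hcon
    have h1 : n ≤ M * ∑ l, t l := hcon.trans (Nat.mul_le_mul_left M hsumE)
    have h2 : (c+1) * n ≤ (c+1) * (M * ∑ l, t l) := Nat.mul_le_mul_left _ h1
    have h3 : (c+1) * (M * ∑ l, t l) ≤ (M+1)*(c+1) * ∑ l, t l := by
      have : (M+1)*(c+1) * ∑ l, t l = (c+1) * (M * ∑ l, t l) + (c+1) * ∑ l, t l := by ring
      omega
    have h4 : (c+1) * n = c * n + n := by ring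
    omega
  obtain ⟨j, hj, hjlt⟩ := Finset.exists_lt_of_sum_lt hlt
  refine ⟨A j, Finset.card_pos.mp (by omega), ?_, ?_⟩
  · intro x hx
    obtain ⟨d, _, hd⟩ := Finset.mem_image.mp (Finset.mem_filter.mp hx).1
    exact ⟨d, hd⟩
  · refine le_trans (Nat.mul_le_mul_left M (Finset.card_le_card ?_)) hjlt.le
    intro x hx
    simp only [E, Finset.mem_filter] at hx ⊢
    exact hx

end Vale.Agent.P196.Tree
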