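import Vale.Agent.P196.Tree.Core
import Vale.Agent.P196.Tree.Model
import Vale.Agent.P196.Tree.Namioka

namespace Vale.Agent.P196.Tree

/-- The group element represented by a letter. -/
def letterElt {G : Type} [Group G] {n : ℕ} (π : FreeGroup (Fin n) →* G) (l : Fin n × Bool) : G :=
  cond l.2 (π (FreeGroup.of l.1)) (π (FreeGroup.of l.1))⁻¹

lemma letterAct_eq {G V : Type} [Group G] {n : ℕ} (π : FreeGroup (Fin n) →* G)
    (ψ : G →* Equiv.Perm V) (l : Fin n × Bool) (y : V) :
    letterAct π ψ l y = ψ (letterElt π l) y := by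
  obtain ⟨j, b⟩ := l
  cases b <;> simp [letterAct, letterElt]

/-- Graded-forest version: a finitely presented simple amenable group acting nontrivially by
bounded-displacement permutations on a graded forest of bounded degree is finite. -/
theorem core_tree (V : Type) (p : V → V) (h : V → ℤ) (hp : ∀ v, h (p v) = h v + 1) (Δ : ℕ)
    (hΔ : ∀ v, ∃ t : Finset V, t.card ≤ Δ ∧ ∀ w, p w = v → w ∈ t)
    (G : Type) [Group G] (hfp : Group.IsFinitelyPresented G) (hS : IsSimpleGroup G)
    (hA : IsAmenable G) (ψ : G →* Equiv.Perm V) (g₀ : G) (hg₀ : ψ g₀ ≠ 1)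
    (hb : ∀ g, ∃ N : ℕ, ∀ x, Near p N x (ψ g x)) : Finite G := by
  classical
  obtain ⟨n, π, hπ, R, hRfin, hR⟩ := hfp.out
  obtain ⟨x₀, hx₀⟩ : ∃ x₀, ψ g₀ x₀ ≠ x₀ := by
    by_contra hcon
    push Not at hcon
    exact hg₀ (Equiv.ext hcon)
  -- displacement bound for the letters
  choose Nf hNf using hb
  obtain ⟨N, hNub⟩ := (Set.finite_range (fun l : Fin n × Bool => Nf (letterElt π l))).bddAbove
  have hN : ∀ l x, Near p N x (letterAct π ψ l x) := by
    intro l x
    rw [letterAct_eq]
    exact near_mono (hNub ⟨l, rfl⟩) (hNf _ x)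
  -- bound on the length of the relators
  obtain ⟨L₀, hL₀⟩ := (hRfin.image (fun r => r.toWord.length)).bddAbove
  let L : ℕ := max L₀ 2
  have hL : ∀ r ∈ R, r.toWord.length ≤ L := by
    intro r hr
    exact le_trans (hL₀ ⟨r, hr, rfl⟩) (le_max_left _ _)
  have hL2 : 2 ≤ L := le_max_right _ _
  -- a point fixed by all letters is fixed by the group
  have hfixed : ∀ y, (∀ l, letterAct π ψ l y = y) → ∀ g, ψ g y = y := by
    intro y hy g
    obtain ⟨w, rfl⟩ := hπ g
    rw [← FreeGroup.mk_toWord (x := w), ← wact_letterAct]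
    generalize w.toWord = wd
    induction wd with
    | nil => rfl
    | cons l wd ih =>
      simp only [wact]
      rw [ih, hy]
  have hmoved : ∀ g, ∃ l, letterAct π ψ l (ψ g x₀) ≠ ψ g x₀ := by
    intro g
    by_contra hcon
    push Not at hcon
    have h1 := hfixed _ hcon
    have h2 : ψ g x₀ = x₀ := by
      have := h1 g⁻¹
      rw [← Equiv.Perm.mul_apply, ← map_mul, inv_mul_cancel, map_one] at this
      exact this.symm
    rw [h2] at h1
    exact hx₀ (h1 g₀)
  refine finite_of_hasModel G hS n π hπ R hR V ψ L hL hL2 ?_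
  refine hasModel_of_folner p h hp Δ hΔ (letterAct π ψ) linv ?_ N L (by omega) hN ?_
  · intro l x
    have := letterAct_linv π ψ (linv l) x
    have h2 : linv (linv l) = l := by
      obtain ⟨j, b⟩ := l
      simp [linv]
    rw [h2] at this
    exact this
  · intro M
    obtain ⟨A, hne, horb, hfol⟩ := folner_orbit hA ψ (letterElt π) x₀ M
    refine ⟨A, hne, ?_, ?_⟩
    · intro x hx
      obtain ⟨g, rfl⟩ := horb x hx
      exact hmoved g
    · simp only [letterAct_eq]
      convert hfol

end Vale.Agent.P196.Tree
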