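import Vale.Agent.P196.Tree.Glue

namespace Vale.Agent.P196.Tree

/-- `θ` and `θ'` are mutually inverse isomorphisms between the collars of radius `ρ` of `u`
and of `w`, respecting `A`, the sides of the two cuts and the letters. -/
structure CollarIso {α V : Type} (π : V → V) (act : α → V → V) (A : Set V) (ρ : ℕ) (u w : V)
    (θ θ' : V → V) : Prop where
  map : ∀ y, Near π ρ y u → Near π ρ (θ y) w
  map' : ∀ y, Near π ρ y w → Near π ρ (θ' y) u
  left : ∀ y, Near π ρ y u → θ' (θ y) = y
  right : ∀ y, Near π ρ y w → θ (θ' y) = y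
  memA : ∀ y, Near π ρ y u → (y ∈ A ↔ θ y ∈ A)
  below : ∀ y, Near π ρ y u → (Below π u y ↔ Below π w (θ y))
  equiv : ∀ l y, Near π ρ y u → Near π ρ (act l y) u → θ (act l y) = act l (θ y)
  equiv' : ∀ l y, Near π ρ y w → Near π ρ (act l y) w → θ' (act l y) = act l (θ' y)

theorem twoCut {α V : Type} (π : V → V) (h : V → ℤ) (hπ : ∀ v, h (π v) = h v + 1)
    (act : α → V → V) (N L : ℕ) (hL : 1 ≤ L) (hN : ∀ l x, Near π N x (act l x))
    (A : Finset V) (u w : V) (q : ℕ) (hq : π^[q] w = u) (hq' : L * N + 2 * N < q)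
    (hgood : ∀ y ∈ A,
      (Near π (L * N) y u ∨ Near π (L * N) y w ∨ (Below π u y ∧ ¬ Below π w y)) →
        ∀ l, act l y ∈ A)
    (θ θ' : V → V) (hθ : CollarIso π act (A : Set V) (L * N) u w θ θ')
    (x₀ : V) (hx₀ : x₀ ∈ A) (hx₀u : Below π u x₀) (hx₀w : ¬ Below π w x₀)
    (l₀ : α) (hl₀ : act l₀ x₀ ≠ x₀) : HasModel act L := by
  classical
  set ρ := L * N with hρ
  have hhw : h u = h w + q := by rw [← hq, h_iter hπ]
  have hwu : Below π u w := ⟨q, hq⟩
  -- basic separation facts
  have claim2 : ∀ y, Near π ρ y u → ¬ Below π w y := by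
    intro y hy hb
    have h1 := (near_level hπ hy).1
    have h2 := below_level hπ hb
    have : (ρ : ℤ) + 2 * N < q := by exact_mod_cast hq'
    have hN0 : (0 : ℤ) ≤ N := by positivity
    linarith
  have claim3 : ∀ y, Near π ρ y w → Below π u y := by
    intro y hy
    have h1 := near_below_top hy
    refine below_trans ⟨q - ρ, ?_⟩ h1
    rw [iter_add, ← hq]
    congr 1
    omega
  let InP : V → Prop := fun y => y ∈ A ∧ Below π u y ∧ ¬ Below π w y
  let OutU : V → Prop := fun y => y ∈ A ∧ Near π ρ y u ∧ ¬ Below π u y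
  let OutW : V → Prop := fun y => y ∈ A ∧ Near π ρ y w ∧ Below π w y
  let r : V → V := fun y => if InP y then y else if OutU y then θ y else if OutW y then θ' y else y
  have rP : ∀ y, InP y → r y = y := by
    intro y hy
    simp only [r, if_pos hy]
  have rU : ∀ y, OutU y → r y = θ y := by
    intro y hy
    have : ¬ InP y := fun h1 => hy.2.2 h1.2.1
    simp only [r, if_neg this, if_pos hy]
  have rW : ∀ y, OutW y → r y = θ' y := by
    intro y hy
    have h1 : ¬ InP y := fun h1 => h1.2.2 hy.2.2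
    have h2 : ¬ OutU y := fun h2 => h2.2.2 (below_trans hwu hy.2.2)
    simp only [r, if_neg h1, if_neg h2, if_pos hy]
  have θU : ∀ y, OutU y → InP (θ y) := by
    intro y hy
    refine ⟨(hθ.memA y hy.2.1).mp hy.1, claim3 _ (hθ.map y hy.2.1), ?_⟩
    intro hb
    exact hy.2.2 ((hθ.below y hy.2.1).mpr hb)
  have θW : ∀ y, OutW y → InP (θ' y) := by
    intro y hy
    have hn := hθ.map' y hy.2.1
    have hr := hθ.right y hy.2.1
    refine ⟨?_, ?_, claim2 _ hn⟩
    · rw [Finset.mem_coe.symm, hθ.memA _ hn, hr]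
      exact hy.1
    · rw [hθ.below _ hn, hr]
      exact hy.2.2
  let Y : ℕ → Set V := fun k => {y | k ≤ L ∧ (InP y ∨
    (y ∈ A ∧ Near π ((L - k) * N) y u ∧ ¬ Below π u y) ∨
    (y ∈ A ∧ Near π ((L - k) * N) y w ∧ Below π w y))}
  have rad : ∀ k, (L - k) * N ≤ ρ := by
    intro k
    exact Nat.mul_le_mul_right N (Nat.sub_le L k)
  have radstep : ∀ k, k + 1 ≤ L → (L - (k + 1)) * N + N = (L - k) * N := by
    intro k hk
    have : L - k = (L - (k + 1)) + 1 := by omega
    rw [this]
    ring
  have hstep : ∀ k l y, y ∈ Y (k + 1) → act l y ∈ Y k := by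
    intro k l y hy
    obtain ⟨hk, hy⟩ := hy
    refine ⟨by omega, ?_⟩
    have hNle : N ≤ (L - k) * N := by
      rw [← radstep k hk]; omega
    rcases hy with hy | hy | hy
    · have hA : act l y ∈ A := hgood y hy.1 (Or.inr (Or.inr hy.2)) l
      by_cases h1 : Below π u (act l y)
      · by_cases h2 : Below π w (act l y)
        · right; right
          exact ⟨hA, near_mono hNle (enter_collar hy.2.2 h2 (hN l y)), h2⟩
        · left
          exact ⟨hA, h1, h2⟩
      · right; left
        exact ⟨hA, near_mono hNle (exit_collar hy.2.1 h1 (hN l y)), h1⟩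
    · have hA : act l y ∈ A := hgood y hy.1 (Or.inl (near_mono (rad _) hy.2.1)) l
      have hn : Near π ((L - k) * N) (act l y) u := by
        rw [← radstep k hk]
        exact near_trans hy.2.1 (hN l y)
      by_cases h1 : Below π u (act l y)
      · left
        exact ⟨hA, h1, claim2 _ (near_mono (rad _) hn)⟩
      · right; left
        exact ⟨hA, hn, h1⟩
    · have hA : act l y ∈ A := hgood y hy.1 (Or.inr (Or.inl (near_mono (rad _) hy.2.1))) l
      have hn : Near π ((L - k) * N) (act l y) w := by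
        rw [← radstep k hk]
        exact near_trans hy.2.1 (hN l y)
      by_cases h2 : Below π w (act l y)
      · right; right
        exact ⟨hA, hn, h2⟩
      · left
        exact ⟨hA, claim3 _ (near_mono (rad _) hn), h2⟩
  have hmono : ∀ k, Y (k + 1) ⊆ Y k := by
    intro k y hy
    obtain ⟨hk, hy⟩ := hy
    refine ⟨by omega, ?_⟩
    have hle : (L - (k + 1)) * N ≤ (L - k) * N := Nat.mul_le_mul_right N (by omega)
    rcases hy with hy | hy | hy
    · exact Or.inl hy
    · exact Or.inr (Or.inl ⟨hy.1, near_mono hle hy.2.1, hy.2.2⟩)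
    · exact Or.inr (Or.inr ⟨hy.1, near_mono hle hy.2.1, hy.2.2⟩)
  have hY0 : ∀ y ∈ Y 0, InP (r y) := by
    intro y hy
    obtain ⟨_, hy⟩ := hy
    rcases hy with hy | hy | hy
    · rw [rP y hy]; exact hy
    · have : OutU y := ⟨hy.1, near_mono (rad _) hy.2.1, hy.2.2⟩
      rw [rU y this]; exact θU y this
    · have : OutW y := ⟨hy.1, near_mono (rad _) hy.2.1, hy.2.2⟩
      rw [rW y this]; exact θW y this
  have hb : ∀ l, ∀ y ∈ Y 1, r (act l (r y)) = r (act l y) := by
    intro l y hy
    have hy0 := hstep 0 l y hy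
    obtain ⟨_, hy⟩ := hy
    rcases hy with hy | hy | hy
    · rw [rP y hy]
    · have hOut : OutU y := ⟨hy.1, near_mono (rad _) hy.2.1, hy.2.2⟩
      have hA : act l y ∈ A := hgood y hy.1 (Or.inl hOut.2.1) l
      have hn : Near π ρ (act l y) u := by
        have := near_trans hy.2.1 (hN l y)
        rw [radstep 0 hL] at this
        simpa using this
      rw [rU y hOut, ← hθ.equiv l y hOut.2.1 hn]
      by_cases h1 : Below π u (act l y)
      · have hP : InP (act l y) := ⟨hA, h1, claim2 _ hn⟩
        have hW : OutW (θ (act l y)) :=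
          ⟨(hθ.memA _ hn).mp hA, hθ.map _ hn, (hθ.below _ hn).mp h1⟩
        rw [rP _ hP, rW _ hW, hθ.left _ hn]
      · have hU : OutU (act l y) := ⟨hA, hn, h1⟩
        rw [rU _ hU, rP _ (θU _ hU)]
    · have hOut : OutW y := ⟨hy.1, near_mono (rad _) hy.2.1, hy.2.2⟩
      have hA : act l y ∈ A := hgood y hy.1 (Or.inr (Or.inl hOut.2.1)) l
      have hn : Near π ρ (act l y) w := by
        have := near_trans hy.2.1 (hN l y)
        rw [radstep 0 hL] at this
        simpa using this
      rw [rW y hOut, ← hθ.equiv' l y hOut.2.1 hn]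
      have hn' := hθ.map' _ hn
      have hr := hθ.right _ hn
      by_cases h2 : Below π w (act l y)
      · have hW : OutW (act l y) := ⟨hA, hn, h2⟩
        rw [rW _ hW, rP _ (θW _ hW)]
      · have hP : InP (act l y) := ⟨hA, claim3 _ hn, h2⟩
        have hU : OutU (θ' (act l y)) := by
          refine ⟨?_, hn', ?_⟩
          · rw [Finset.mem_coe.symm, hθ.memA _ hn', hr]
            exact hA
          · rw [hθ.below _ hn', hr]
            exact h2
        rw [rP _ hP, rU _ hU, hr]
  have hglue := glue act r Y hstep hmono hb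
  have hPY : ∀ k, k ≤ L → ∀ y, InP y → y ∈ Y k := fun k hk y hy => ⟨hk, Or.inl hy⟩
  refine ⟨A.filter (fun y => Below π u y ∧ ¬ Below π w y), fun l x => r (act l x), ?_, ?_, ?_⟩
  · intro l x hx
    rw [Finset.mem_filter] at hx ⊢
    exact hY0 _ (hstep 0 l x (hPY 1 hL x hx))
  · intro wd hwd htriv x hx
    rw [Finset.mem_filter] at hx
    have := hglue wd x (hPY _ hwd x hx)
    rw [rP x hx, htriv x, rP x hx] at this
    exact this
  · refine ⟨l₀, x₀, ?_, ?_⟩
    · rw [Finset.mem_filter]
      exact ⟨hx₀, hx₀u, hx₀w⟩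
    · have hP0 : InP x₀ := ⟨hx₀, hx₀u, hx₀w⟩
      have hy0 := hstep 0 l₀ x₀ (hPY 1 hL x₀ hP0)
      have hlev := near_level hπ (hN l₀ x₀)
      have hqz : (ρ : ℤ) + 2 * N < q := by exact_mod_cast hq'
      obtain ⟨_, hy⟩ := hy0
      rcases hy with hy | hy | hy
      · change r (act l₀ x₀) ≠ x₀
        rw [rP _ hy]
        exact hl₀
      · have hU : OutU (act l₀ x₀) := ⟨hy.1, near_mono (rad _) hy.2.1, hy.2.2⟩
        change r (act l₀ x₀) ≠ x₀
        rw [rU _ hU]
        intro he
        have h1 := (near_level hπ (hθ.map _ hU.2.1)).2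
        rw [he] at h1
        -- `x₀` is close to `u` since the letter leaves the set below `u`
        have h2 := (near_level hπ (exit_collar hx₀u hy.2.2 (hN l₀ x₀))).1
        linarith [hlev.1, hlev.2]
      · have hW : OutW (act l₀ x₀) := ⟨hy.1, near_mono (rad _) hy.2.1, hy.2.2⟩
        change r (act l₀ x₀) ≠ x₀
        rw [rW _ hW]
        intro he
        have h1 := (near_level hπ (hθ.map' _ hW.2.1)).1
        rw [he] at h1
        have h2 := below_level hπ hy.2.2
        linarith [hlev.1, hlev.2]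

end Vale.Agent.P196.Tree
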